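import Vale.Agent.P372.H536.Key
import Vale.Agent.P372.H897.CliffT
import Vale.Agent.P372.H405.Corner
import Vale.Agent.P372.H740.Scale

/-!
# The merge: `CornerLin` for all tensor powers of `(2/3) 1 + (1/3) (T ⊗ T) Rh`
-/

set_option linter.unusedSectionVars false
set_option linter.style.longLine false

open Matrix Kronecker Finset
open scoped ComplexOrder MatrixOrder

namespace Vale.Agent.P372.H536

open H897

section one

variable {a : Type} [Fintype a] [DecidableEq a]

/-- The superoperator of a kernel as a linear map. -/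
def apL (t : Ker a) : Matrix a a ℂ →ₗ[ℂ] Matrix a a ℂ where
  toFun := ap t
  map_add' X Y := ap_add t X Y
  map_smul' c X := ap_smul t c X

theorem apL_apply (t : Ker a) (X : Matrix a a ℂ) : apL t X = ap t X := rfl

theorem isFlip {t : Ker a} (h : SF t) (h1 : SD t) (h2 : UN t) (h3 : HM t) : H405.IsFlip (apL t) where
  trace X := trace_preserving h1 h2 X
  one := h2.one
  herm X := h3.conj X
  dual X Y := h1.trace X Y
  block X C Y hb := by
    have := ap_blocks h.choi hb
    simp only [apL_apply]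
    rw [h3.conj] at this
    exact this
  co Y := h.coSchwarz Y

theorem tk_comp {t : Ker a} (h1 : SD t) (h2 : UN t) (V : Matrix a a ℂ) :
    comp (tk (ap t V)) t = comp t (tk V) := by
  funext p q i j
  simp only [comp, tk]
  have e1 : ∑ r, ∑ s, (if r = s then ap t V q p / (Fintype.card a : ℂ) else 0) * t r s i j =
      ap t V q p / (Fintype.card a : ℂ) * ∑ r, t r r i j := by
    rw [Finset.mul_sum]
    refine Finset.sum_congr rfl fun r _ => ?_
    rw [Finset.sum_eq_single r]
    · simp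
    · intro s _ hs
      simp [Ne.symm hs]
    · simp
  rw [e1, h2 i j]
  by_cases hij : i = j
  · simp only [hij, if_true, mul_one]
    simp only [ap, Finset.sum_div]
    rw [Finset.sum_comm]
    refine Finset.sum_congr rfl fun r _ => Finset.sum_congr rfl fun s _ => ?_
    rw [h1 s r q p]
    ring
  · simp [hij]

theorem trace_div (V : Matrix a a ℂ) : ap (tk V) 1 = (V.trace / (Fintype.card a : ℂ)) • 1 := by
  funext i j
  simp only [ap, tk, Matrix.smul_apply, smul_eq_mul, Matrix.one_apply]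
  have h : ∀ p : a, ∑ q, (if p = q then (1 : ℂ) else 0) * (if i = j then V q p / (Fintype.card a : ℂ) else 0) =
      if i = j then V p p / (Fintype.card a : ℂ) else 0 := by
    intro p
    rw [Finset.sum_eq_single p]
    · simp
    · intro q _ hq
      simp [Ne.symm hq]
    · simp
  rw [Finset.sum_congr rfl fun p _ => h p]
  by_cases hij : i = j
  · simp only [hij, if_true, mul_one, Matrix.trace, Matrix.diag_apply, Finset.sum_div]
  · simp [hij]

theorem exists_sub_smul_one {X : Matrix a a ℂ} (hX : X.PosDef) :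
    ∃ c : ℝ, 0 < c ∧ (X - (c : ℂ) • 1).PosSemidef := by
  have hH := hX.isHermitian
  have hpos : ∀ i, 0 < hH.eigenvalues i := hH.posDef_iff_eigenvalues_pos.mp hX
  obtain ⟨c, hc, hle⟩ : ∃ c : ℝ, 0 < c ∧ ∀ i, c ≤ hH.eigenvalues i := by
    rcases isEmpty_or_nonempty a with h | h
    · exact ⟨1, one_pos, fun i => (h.false i).elim⟩
    · obtain ⟨i0, hi0⟩ := Finite.exists_min hH.eigenvalues
      exact ⟨_, hpos i0, hi0⟩
  refine ⟨c, hc, ?_⟩
  have hs := hH.spectral_theorem
  rw [Unitary.conjStarAlgAut_apply] at hs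
  set U : Matrix a a ℂ := (hH.eigenvectorUnitary : Matrix a a ℂ) with hU
  have hUU : U * star U = 1 := Unitary.coe_mul_star_self _
  have e : X - (c : ℂ) • 1 =
      U * (diagonal (fun i => ((hH.eigenvalues i - c : ℝ) : ℂ))) * Uᴴ := by
    have e1 : (diagonal (fun i => ((hH.eigenvalues i - c : ℝ) : ℂ)) : Matrix a a ℂ) =
        diagonal (RCLike.ofReal ∘ hH.eigenvalues) - (c : ℂ) • 1 := by
      ext i j
      rw [Matrix.sub_apply, Matrix.smul_apply, diagonal_apply, diagonal_apply, Matrix.one_apply]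
      split_ifs <;> simp
    rw [e1, Matrix.mul_sub, Matrix.sub_mul, Matrix.mul_smul, Matrix.mul_one, Matrix.smul_mul,
      ← star_eq_conjTranspose, hUU]
    rw [← hs]
  rw [e]
  refine PosSemidef.mul_mul_conjTranspose_same (PosSemidef.diagonal fun i => ?_) U
  have h9 : (0 : ℝ) ≤ hH.eigenvalues i - c := sub_nonneg.mpr (hle i)
  show (0 : ℂ) ≤ ((hH.eigenvalues i - c : ℝ) : ℂ)
  exact_mod_cast h9

end one

variable {A B : Type} [Fintype A] [DecidableEq A] [Fintype B] [DecidableEq B] {n : ℕ}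

theorem SF_sk {t : Ker (A × B)} (h : SF t) : SF (sk fun _ : Fin n => t) :=
  SF.rk (SF.pk (ι := Fin n) h)
    (Equiv.arrowProdEquivProdArrow (Fin n) (fun _ => A) (fun _ => B)).symm

theorem SD_sk {t : Ker (A × B)} (h : SD t) : SD (sk fun _ : Fin n => t) := fun p q i j =>
  Finset.prod_congr rfl fun _ _ => h _ _ _ _

theorem HM_sk {t : Ker (A × B)} (h : HM t) : HM (sk fun _ : Fin n => t) := by
  intro p q i j
  simp only [sk, star_prod, h _ _ _ _]

theorem UN_sk {t : Ker (A × B)} (h : UN t) : UN (sk fun _ : Fin n => t) := by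
  intro i j
  simp only [sk]
  rw [sum_prod (fun k c => t c c (i.1 k, i.2 k) (j.1 k, j.2 k))]
  simp only [h _ _]
  have := congrFun (congrFun (wt_one (A := A) (B := B) (n := n)) i) j
  simp only [wt, Matrix.one_apply] at this
  exact this

theorem isFlip_sk {t : Ker (A × B)} (h : SF t) (h1 : SD t) (h2 : UN t) (h3 : HM t) :
    H405.IsFlip (apL (sk fun _ : Fin n => t)) :=
  isFlip (SF_sk h) (SD_sk h1) (UN_sk h2) (HM_sk h3)

theorem choi_act {V : Matrix (A × B) (A × B) ℂ} (hV : V.PosSemidef) (S : Fin n → Bool) :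
    (Choi (sk (act V S))).PosSemidef := by
  refine choi_sk fun k => ?_
  unfold act
  split_ifs
  · exact choi_tk hV
  · exact choi_idk

theorem act_comm {t : Ker (A × B)} (h1 : SD t) (h2 : UN t) (V : Matrix (A × B) (A × B) ℂ)
    (S : Fin n → Bool) (X : Matrix ((Fin n → A) × (Fin n → B)) ((Fin n → A) × (Fin n → B)) ℂ) :
    ap (sk fun _ => t) (ap (sk (act (ap t V) S)) X) = ap (sk (act V S)) (ap (sk fun _ => t) X) := by
  rw [← ap_comp, ← ap_comp, comp_sk, comp_sk]
  congr 2
  funext k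
  unfold act
  split_ifs
  · exact tk_comp h1 h2 V
  · rw [idk_comp, comp_idk]

theorem act_one (V : Matrix (A × B) (A × B) ℂ) (S : Fin n → Bool) :
    ap (sk (act V S)) 1 =
      (∏ k, if S k then V.trace / (Fintype.card (A × B) : ℂ) else 1) • 1 := by
  rw [← wt_one, ap_sk_wt, ← wt_smul]
  congr 1
  funext k
  unfold act
  split_ifs
  · rw [trace_div]
  · rw [ap_idk, one_smul]

theorem act_posDef {V : Matrix (A × B) (A × B) ℂ} (hV : V.PosSemidef) (h0 : 0 < V.trace.re)
    (S : Fin n → Bool) {X : Matrix ((Fin n → A) × (Fin n → B)) ((Fin n → A) × (Fin n → B)) ℂ}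
    (hX : X.PosDef) : (ap (sk (act V S)) X).PosDef := by
  obtain ⟨c, hc, hc1⟩ := exists_sub_smul_one hX
  have h1 : ap (sk (act V S)) X = ap (sk (act V S)) (X - (c : ℂ) • 1) +
      (c : ℂ) • ap (sk (act V S)) 1 := by
    rw [← ap_smul, ← ap_add, sub_add_cancel]
  have hne : Nonempty (A × B) := by
    by_contra hh
    rw [not_nonempty_iff] at hh
    simp [Matrix.trace] at h0
  have hcard : (0 : ℝ) < Fintype.card (A × B) := by exact_mod_cast Fintype.card_pos
  have htr : V.trace = (V.trace.re : ℂ) := by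
    refine Complex.ext rfl ?_
    rw [Complex.ofReal_im]
    exact (Complex.le_def.mp hV.trace_nonneg).2.symm
  have h2 : (∏ k : Fin n, if S k then V.trace / (Fintype.card (A × B) : ℂ) else 1) =
      ((∏ k : Fin n, if S k then V.trace.re / (Fintype.card (A × B) : ℝ) else 1 : ℝ) : ℂ) := by
    rw [Complex.ofReal_prod]
    refine Finset.prod_congr rfl fun k _ => ?_
    split_ifs
    · rw [htr]; push_cast; rfl
    · simp
  have h3 : (0 : ℝ) < ∏ k : Fin n, if S k then V.trace.re / (Fintype.card (A × B) : ℝ) else 1 := by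
    refine Finset.prod_pos fun k _ => ?_
    split_ifs
    · exact div_pos h0 hcard
    · exact one_pos
  rw [h1, act_one, h2, smul_smul, ← Complex.ofReal_mul, add_comm]
  refine PosDef.add_posSemidef ?_ (ap_psd (choi_act hV S) hc1)
  exact PosDef.one.smul (by exact_mod_cast mul_pos hc h3)

/-- The sum of the split operators. -/
theorem sum_act (V : Matrix (A × B) (A × B) ℂ) (v : ℝ)
    (X : Matrix ((Fin n → A) × (Fin n → B)) ((Fin n → A) × (Fin n → B)) ℂ) :
    ∑ S : Fin n → Bool, (∏ k, if S k then (1 : ℝ) else v) * (ap (sk (act V S)) X).trace.re =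
      (tpow n ((v : ℂ) • 1 + V) * X).trace.re := by
  have h1 : ∀ S : Fin n → Bool, ((∏ k, if S k then (1 : ℝ) else v : ℝ) : ℂ) *
      (ap (sk (act V S)) X).trace =
      (wt (fun k => (fun _ x => (if x then (1 : ℂ) else (v : ℂ)) •
        (if x then V else (1 : Matrix (A × B) (A × B) ℂ))) k (S k)) * X).trace := by
    intro S
    have e1 : (ap (sk (act V S)) X).trace = (wt (fun k => dual (act V S k) 1) * X).trace := by
      have := trace_ap (sk (act V S)) 1 X
      rw [Matrix.one_mul] at this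
      rw [this, ← wt_one, dual_sk]
    rw [e1, wt_smul (fun k => if S k then (1 : ℂ) else (v : ℂ))
      (fun k => if S k then V else (1 : Matrix (A × B) (A × B) ℂ)), Matrix.smul_mul, trace_smul,
      smul_eq_mul, Complex.ofReal_prod]
    congr 1
    · refine Finset.prod_congr rfl fun k _ => ?_
      split_ifs <;> simp
    · congr 3
      funext k
      unfold act
      split_ifs
      · rw [dual_tk_one]
      · rw [dual_idk]
  have h2 : ∑ S : Fin n → Bool, ((∏ k, if S k then (1 : ℝ) else v : ℝ) : ℂ) *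
      (ap (sk (act V S)) X).trace = (tpow n ((v : ℂ) • 1 + V) * X).trace := by
    rw [Finset.sum_congr rfl fun S _ => h1 S, ← trace_sum, ← Matrix.sum_mul,
      sum_wt (fun _ x => (if x then (1 : ℂ) else (v : ℂ)) •
        (if x then V else (1 : Matrix (A × B) (A × B) ℂ))), ← wt_const]
    congr 3
    funext k
    simp only [if_true, Bool.false_eq_true, if_false, one_smul]
    rw [add_comm]
  rw [← h2, Complex.re_sum]
  refine Finset.sum_congr rfl fun S _ => ?_
  rw [Complex.re_ofReal_mul]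

/-- The merge, for `V₁` with positive trace. -/
theorem merge_pos {tA : Ker A} {tB : Ker B} (sA : SF tA) (sB : SF tB) (dA : SD tA) (dB : SD tB)
    (uA : UN tA) (uB : UN tB) (mA : HM tA) (mB : HM tB)
    {V : Matrix (A × B) (A × B) ℂ} (hV : V.PosSemidef) (h0 : 0 < V.trace.re)
    {v : ℝ} (hv : 0 ≤ v) (hW : ((v : ℂ) • 1 - V).PosSemidef) (n : ℕ) :
    H740.CornerLin (tpow n ((v : ℂ) • 1 + ap (kt tA tB) V)) := by
  set τ : Ker (A × B) := kt tA tB with hτ
  have sτ : SF τ := SF.kt sA sB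
  have dτ : SD τ := SD.kt dA dB
  have uτ : UN τ := UN.kt uA uB
  have mτ : HM τ := HM.kt mA mB
  have hV' : (ap τ V).PosSemidef := ap_psd sτ.choi hV
  have htr' : 0 < (ap τ V).trace.re := by
    rw [trace_preserving dτ uτ]
    exact h0
  intro a₀ a₁ b₀ b₁ C μ ha₀ ha₁ hb₀ hb₁ hC
  have hflip := isFlip_sk (n := n) sτ dτ uτ mτ
  -- the corners of the split operators
  have hsplit : ∀ S : Fin n → Bool, (fromBlocks (ap (sk (act (ap τ V) S)) (a₀ ⊗ₖ b₀))
      (ap (sk (act (ap τ V) S)) C) (ap (sk (act (ap τ V) S)) C)ᴴ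
      (ap (sk (act (ap τ V) S)) (a₁ ⊗ₖ b₁))).PosSemidef := by
    intro S
    have h1 := ap_blocks (choi_act hV' S) hC
    have h2 := (isHermitian_fromBlocks_iff.mp h1.isHermitian).2.1
    rwa [← h2] at h1
  have hstart := fun S : Fin n → Bool => H405.start hflip
    (act_posDef hV' htr' S (ha₀.kronecker hb₀)) (hsplit S)
  choose Z hZ1 hZ2 hZ3 using hstart
  simp only [apL_apply, act_comm dτ uτ] at hZ2
  -- the noisy filters
  have hS : ∀ (x : Matrix (Fin n → A) (Fin n → A) ℂ) (y : Matrix (Fin n → B) (Fin n → B) ℂ),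
      ap (sk fun _ : Fin n => τ) (x ⊗ₖ y) = ap (skA fun _ => tA) x ⊗ₖ ap (skA fun _ => tB) y := by
    intro x y
    rw [hτ, sk_kt, ap_kt]
  simp only [hS] at hZ2
  have pA : ∀ x : Matrix (Fin n → A) (Fin n → A) ℂ, x.PosSemidef →
      (ap (skA fun _ => tA) x).PosSemidef := fun x hx => ap_psd (choi_skA fun _ => sA.choi) hx
  have pB : ∀ x : Matrix (Fin n → B) (Fin n → B) ℂ, x.PosSemidef →
      (ap (skA fun _ => tB) x).PosSemidef := fun x hx => ap_psd (choi_skA fun _ => sB.choi) hx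
  have hkey := key_lin hV hv hW (pA _ ha₁.posSemidef) (pA _ ha₀.posSemidef)
    (pB _ hb₁.posSemidef) (pB _ hb₀.posSemidef) Z hZ1 hZ2
  simp only [← hS] at hkey
  have hw : ∀ X : Matrix ((Fin n → A) × (Fin n → B)) ((Fin n → A) × (Fin n → B)) ℂ,
      (tpow n ((v : ℂ) • 1 + V) * ap (sk fun _ : Fin n => τ) X).trace =
      (tpow n ((v : ℂ) • 1 + ap τ V) * X).trace := by
    intro X
    rw [← (SD_sk dτ).trace, ← wt_const, ap_sk_wt, ap_add, ap_smul, uτ.one, wt_const]
  rw [hw, hw] at hkey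
  have hsum : ∑ S : Fin n → Bool, (∏ k, if S k then (1 : ℝ) else v) *
      (4 * μ * (ap (sk (act (ap τ V) S)) C).trace.re - 2 * μ ^ 2 *
        ((ap (sk (act (ap τ V) S)) (a₀ ⊗ₖ b₀)).trace.re +
          (ap (sk (act (ap τ V) S)) (a₁ ⊗ₖ b₁)).trace.re)) ≤
      ∑ S : Fin n → Bool, (∏ k, if S k then (1 : ℝ) else v) * (Z S).trace.re := by
    refine Finset.sum_le_sum fun S _ => mul_le_mul_of_nonneg_left (hZ3 S μ) ?_
    refine Finset.prod_nonneg fun k _ => ?_
    split_ifs
    · exact zero_le_one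
    · exact hv
  have hsum2 : ∑ S : Fin n → Bool, (∏ k, if S k then (1 : ℝ) else v) *
      (4 * μ * (ap (sk (act (ap τ V) S)) C).trace.re - 2 * μ ^ 2 *
        ((ap (sk (act (ap τ V) S)) (a₀ ⊗ₖ b₀)).trace.re +
          (ap (sk (act (ap τ V) S)) (a₁ ⊗ₖ b₁)).trace.re)) =
      4 * μ * (tpow n ((v : ℂ) • 1 + ap τ V) * C).trace.re - 2 * μ ^ 2 *
        ((tpow n ((v : ℂ) • 1 + ap τ V) * (a₀ ⊗ₖ b₀)).trace.re +
          (tpow n ((v : ℂ) • 1 + ap τ V) * (a₁ ⊗ₖ b₁)).trace.re) := by
    rw [← sum_act (ap τ V) v C, ← sum_act (ap τ V) v (a₀ ⊗ₖ b₀), ← sum_act (ap τ V) v (a₁ ⊗ₖ b₁),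
      Finset.mul_sum, ← Finset.sum_add_distrib, Finset.mul_sum, ← Finset.sum_sub_distrib]
    refine Finset.sum_congr rfl fun S _ => ?_
    ring
  rw [hsum2] at hsum
  linarith

theorem cornerLin_smul {Q : Matrix (A × B) (A × B) ℂ} (h : H740.CornerLin Q) {c : ℝ}
    (hc : 0 ≤ c) : H740.CornerLin ((c : ℂ) • Q) := by
  intro a₀ a₁ b₀ b₁ C μ ha₀ ha₁ hb₀ hb₁ hC
  have h1 := mul_le_mul_of_nonneg_left (h a₀ a₁ b₀ b₁ C μ ha₀ ha₁ hb₀ hb₁ hC) hc
  simp only [Matrix.smul_mul, trace_smul, smul_eq_mul, Complex.re_ofReal_mul]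
  linarith

theorem tpow_smul' (n : ℕ) (c : ℝ) (R : Matrix (A × B) (A × B) ℂ) :
    tpow n ((c : ℂ) • R) = (((c ^ n : ℝ)) : ℂ) • tpow n R := by
  ext p q
  simp [tpow, Finset.prod_mul_distrib]

/-- The merge (row 13, `KM`): `CornerLin` for all tensor powers of
`(2/3) 1 + (1/3) (T_A ⊗ T_B) Rh`, `0 ≤ Rh ≤ 2`. -/
theorem merge [Nonempty A] [Nonempty B] {tA : Ker A} {tB : Ker B} (sA : SF tA) (sB : SF tB) (dA : SD tA) (dB : SD tB)
    (uA : UN tA) (uB : UN tB) (mA : HM tA) (mB : HM tB)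
    {Rh : Matrix (A × B) (A × B) ℂ} (hR : Rh.PosSemidef)
    (hR2 : ((2 : ℂ) • 1 - Rh).PosSemidef) (n : ℕ) :
    H740.CornerLin (tpow n ((2 / 3 : ℂ) • 1 + (1 / 3 : ℂ) • ap (kt tA tB) Rh)) := by
  -- a statement for operators with positive trace
  have main : ∀ Q : Matrix (A × B) (A × B) ℂ, Q.PosSemidef → ((2 : ℂ) • 1 - Q).PosSemidef →
      0 < Q.trace.re →
      H740.CornerLin (tpow n ((2 / 3 : ℂ) • 1 + (1 / 3 : ℂ) • ap (kt tA tB) Q)) := by
    intro Q hQ hQ2 hQ3
    have h13 : (0 : ℂ) ≤ (1 / 3 : ℂ) := by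
      have : (0 : ℝ) ≤ 1 / 3 := by norm_num
      have h2 : ((1 / 3 : ℝ) : ℂ) = (1 / 3 : ℂ) := by push_cast; rfl
      rw [← h2]
      exact_mod_cast this
    have h1 := merge_pos (n := n) sA sB dA dB uA uB mA mB (V := (1 / 3 : ℂ) • Q)
      (hQ.smul h13) (by
        rw [trace_smul, smul_eq_mul]
        have h2 : ((1 / 3 : ℝ) : ℂ) = (1 / 3 : ℂ) := by push_cast; rfl
        rw [← h2, Complex.re_ofReal_mul]
        positivity) (v := 2 / 3) (by norm_num) (by
        have e : (((2 / 3 : ℝ) : ℂ) • (1 : Matrix (A × B) (A × B) ℂ) - (1 / 3 : ℂ) • Q) =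
            (1 / 3 : ℂ) • ((2 : ℂ) • 1 - Q) := by
          rw [smul_sub, smul_smul]
          congr 2
          push_cast
          ring
        rw [e]
        exact hQ2.smul h13)
    rw [ap_smul] at h1
    have e : (((2 / 3 : ℝ) : ℂ)) = (2 / 3 : ℂ) := by push_cast; rfl
    rw [e] at h1
    exact h1
  by_cases h0 : 0 < Rh.trace.re
  · exact main Rh hR hR2 h0
  -- now `Rh = 0`
  have hz : Rh = 0 := by
    rw [← hR.trace_eq_zero_iff]
    have h1 := Complex.le_def.mp hR.trace_nonneg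
    refine Complex.ext ?_ h1.2.symm
    exact le_antisymm (not_lt.mp h0) h1.1
  have uT : UN (kt tA tB) := UN.kt uA uB
  · have h1 := main ((2 : ℂ) • 1) (PosSemidef.one.smul (by norm_num)) (by
      rw [sub_self]; exact PosSemidef.zero) (by
      rw [trace_smul, Matrix.trace_one, smul_eq_mul]
      have h2 : (2 : ℂ) * (Fintype.card (A × B) : ℂ) = ((2 * Fintype.card (A × B) : ℝ) : ℂ) := by
        push_cast; rfl
      rw [h2, Complex.ofReal_re]
      have : (0 : ℝ) < Fintype.card (A × B) := by exact_mod_cast Fintype.card_pos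
      positivity)
    have h2 := cornerLin_smul h1 (c := (1 / 2) ^ n) (by positivity)
    rw [← tpow_smul'] at h2
    convert h2 using 2
    rw [hz, ap_smul, uT.one]
    have e0 : ap (kt tA tB) (0 : Matrix (A × B) (A × B) ℂ) = 0 := by
      have := ap_smul (kt tA tB) 0 (0 : Matrix (A × B) (A × B) ℂ)
      simpa using this
    rw [e0, smul_zero, add_zero, smul_smul, ← add_smul, smul_smul]
    congr 1
    push_cast
    norm_num

end Vale.Agent.P372.H536
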