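import Vale.Agent.P372.H536.Merge
import Vale.Agent.P372.H507.Inst
import Vale.Agent.P372.FULL.Link

/-!
# Final composition: an entangled state without distillable key
-/

set_option linter.unusedSectionVars false
set_option linter.style.longLine false

open Matrix Kronecker Finset
open scoped ComplexOrder MatrixOrder

namespace Vale.Agent.P372.H536

theorem wc_eq {m : ℕ} (g : (Fin m → ZMod 2) × (Fin m → ZMod 2)) (j : Fin m) :
    H897.wc g j = Fm.cw g j := by
  unfold H897.wc Fm.cw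
  congr 1
  rw [← Finset.sum_filter]
  refine Finset.sum_congr ?_ fun _ _ => rfl
  ext k
  simp

theorem mu_eq {m : ℕ} (g : (Fin m → ZMod 2) × (Fin m → ZMod 2)) : H897.mu g = Fm.mu g := by
  unfold H897.mu Fm.mu
  have h : ∀ j, H897.wc g j = Fm.cw g j := wc_eq g
  simp only [h]
  rfl

theorem tk_eq (m : ℕ) : H897.tk m = Fm.tk m := by
  funext p q i j
  unfold H897.tk Fm.tk
  simp only [mu_eq]
  rfl

theorem kk_eq (m : ℕ) : H897.kt (H897.tk m) (H897.tk m) = H507.kk m := by
  rw [tk_eq]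
  funext p q i j
  rfl

theorem ap_eq {I : Type} [Fintype I] [DecidableEq I] (t : I → I → I → I → ℂ) (Y : Matrix I I ℂ) :
    H897.ap t Y = Fm.ap t Y := by
  funext i j
  refine Finset.sum_congr rfl fun p _ => Finset.sum_congr rfl fun q _ => ?_
  ring

/-- The state, in the encoding of the merge. -/
theorem opR_eq : H507.opR = (2 / 3 : ℂ) • 1 +
    (1 / 3 : ℂ) • H897.ap (H897.kt (H897.tk 3600) (H897.tk 3600)) H507.opRh := by
  have h1 : H507.opR = H897.ap (H897.kt (H897.tk 3600) (H897.tk 3600))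
      ((2 / 3 : ℂ) • 1 + (1 / 3 : ℂ) • H507.opRh) := by
    rw [kk_eq, ap_eq]
    rfl
  rw [h1, H897.ap_add, H897.ap_smul, H897.ap_smul,
    (H897.UN.kt (H897.UN_tk (m := 3600)) (H897.UN_tk (m := 3600))).one]

theorem opR_noTest : H740.NoTest H507.opR := by
  have hR : H507.opR.PosSemidef := by
    rw [opR_eq]
    have h1 := H897.ap_psd ((H897.SF_tk 3600).kt (H897.SF_tk 3600)).choi H507.opRh_psd
    refine PosSemidef.add (PosSemidef.one.smul ?_) (h1.smul ?_)
    · have : (0 : ℝ) ≤ 2 / 3 := by norm_num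
      have h2 : ((2 / 3 : ℝ) : ℂ) = (2 / 3 : ℂ) := by push_cast; rfl
      rw [← h2]
      exact_mod_cast this
    · have : (0 : ℝ) ≤ 1 / 3 := by norm_num
      have h2 : ((1 / 3 : ℝ) : ℂ) = (1 / 3 : ℂ) := by push_cast; rfl
      rw [← h2]
      exact_mod_cast this
  refine H740.noTest_of_corner (fun n => ?_) fun n => ?_
  · rw [← wt_const]
    exact wt_psd fun _ => hR
  · rw [opR_eq]
    exact merge (H897.SF_tk 3600) (H897.SF_tk 3600) H897.SD_tk H897.SD_tk H897.UN_tk H897.UN_tk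
      H897.HM_tk H897.HM_tk H507.opRh_psd H507.two_sub_opRh_psd n

theorem opR_psd : H507.opR.PosSemidef := by
  rw [opR_eq]
  have h1 := H897.ap_psd ((H897.SF_tk 3600).kt (H897.SF_tk 3600)).choi H507.opRh_psd
  refine PosSemidef.add (PosSemidef.one.smul ?_) (h1.smul ?_)
  · have : (0 : ℝ) ≤ 2 / 3 := by norm_num
    have h2 : ((2 / 3 : ℝ) : ℂ) = (2 / 3 : ℂ) := by push_cast; rfl
    rw [← h2]
    exact_mod_cast this
  · have : (0 : ℝ) ≤ 1 / 3 := by norm_num
    have h2 : ((1 / 3 : ℝ) : ℂ) = (1 / 3 : ℂ) := by push_cast; rfl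
    rw [← h2]
    exact_mod_cast this

/-- Question 1 in the negative: an entangled state whose distillable key is zero. -/
theorem final :
    ∃ (a b : ℕ) (ρ : Matrix (Fin a × Fin b) (Fin a × Fin b) ℂ), ρ.PosSemidef ∧ ρ.trace = 1 ∧
      ¬ IsSep ρ ∧ ∀ (E : Type) [Fintype E] [DecidableEq E] (Ψ : Matrix (Fin a × Fin b) E ℂ),
        Ψ * Ψᴴ = ρ → distillableKey Ψ = 0 :=
  FULL.link H507.opR opR_psd H507.opR_not_isSep opR_noTest

end Vale.Agent.P372.H536
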