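import Vale.Agent.P372.H536.Sites
import Vale.Agent.P372.Swap.Core

/-!
# The key inequality for families of Hermitian corners (row L4 of `p372_rows`)

`∑_S v^|S^c| tr Z_S ≤ (w₀₁ + w₁₀) / 2` and the product form, for every family of Hermitian corners
`Z_S` of the operators `act_S (α_j ⊗ β_j)`, `w_jk = tr (v 1 + V)^{⊗ n} (α_j ⊗ β_k)`,
`0 ≤ V ≤ v`.
-/

set_option linter.unusedSectionVars false
set_option linter.style.longLine false

open Matrix Kronecker Finset
open scoped ComplexOrder MatrixOrder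

namespace Vale.Agent.P372.H536

open H897

section

variable {a b : Type} [Fintype a] [DecidableEq a] [Fintype b] [DecidableEq b]

theorem comp_idk (t : Ker a) : comp t idk = t := by
  funext p q i j
  simp only [comp, idk]
  rw [Finset.sum_eq_single i, Finset.sum_eq_single j]
  · simp
  · intro q _ hq
    simp [hq]
  · simp
  · intro p _ hp
    refine Finset.sum_eq_zero fun q _ => ?_
    simp [hp]
  · simp

theorem idk_comp (t : Ker a) : comp idk t = t := by
  funext p q i j
  simp only [comp, idk]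
  rw [Finset.sum_eq_single p, Finset.sum_eq_single q]
  · simp
  · intro q' _ hq
    simp [Ne.symm hq]
  · simp
  · intro p' _ hp
    refine Finset.sum_eq_zero fun q _ => ?_
    simp [Ne.symm hp]
  · simp

theorem comp_zero (t : Ker a) : comp t 0 = 0 := by
  funext p q i j
  simp [comp]

theorem dual_idk (V : Matrix a a ℂ) : dual idk V = V := by
  funext q p
  simp only [dual, idk]
  rw [Finset.sum_eq_single p, Finset.sum_eq_single q]
  · simp
  · intro q' _ hq
    simp [Ne.symm hq]
  · simp
  · intro p' _ hp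
    refine Finset.sum_eq_zero fun q _ => ?_
    simp [Ne.symm hp]
  · simp

theorem dual_zero (V : Matrix a a ℂ) : dual 0 V = 0 := by
  funext q p
  simp [dual]

theorem dual_tk_one (W : Matrix a a ℂ) : dual (tk W) 1 = W := by
  funext q p
  have hc : (Fintype.card a : ℂ) ≠ 0 := by
    haveI : Nonempty a := ⟨p⟩
    exact_mod_cast Fintype.card_ne_zero
  simp only [dual, tk, Matrix.one_apply]
  have h : ∀ i : a, (∑ j, (if j = i then (1 : ℂ) else 0) * if i = j then W q p / (Fintype.card a : ℂ) else 0)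
      = W q p / (Fintype.card a : ℂ) := by
    intro i
    rw [Finset.sum_eq_single i]
    · simp
    · intro j _ hj
      simp [hj]
    · simp
  simp only [h, Finset.sum_const, Finset.card_univ, nsmul_eq_mul]
  field_simp

/-- Product kernels over the sites of one party. -/
def skA {n : ℕ} (t : Fin n → Ker a) : Ker (Fin n → a) :=
  fun p q i j => ∏ k, t k (p k) (q k) (i k) (j k)

theorem choi_skA {n : ℕ} {t : Fin n → Ker a} (h : ∀ k, (Choi (t k)).PosSemidef) :
    (Choi (skA t)).PosSemidef := by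
  choose L hL using fun k => psd_exists (h k)
  obtain ⟨M, hM⟩ : ∃ M : Matrix (Fin n → a × a) ((Fin n → a) × (Fin n → a)) ℂ,
    ∀ x u, M x u = ∏ k, L k (x k) (u.1 k, u.2 k) :=
    ⟨fun x u => ∏ k, L k (x k) (u.1 k, u.2 k), fun _ _ => rfl⟩
  have e : Choi (skA t) = Mᴴ * M := by
    funext u v
    simp only [Matrix.mul_apply, Matrix.conjTranspose_apply, hM, Choi, skA]
    rw [show (∑ x : Fin n → a × a,
        star (∏ k, L k (x k) (u.1 k, u.2 k)) * ∏ k, L k (x k) (v.1 k, v.2 k)) =
        ∑ x : Fin n → a × a,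
          ∏ k, (star (L k (x k) (u.1 k, u.2 k)) * L k (x k) (v.1 k, v.2 k)) from
      Finset.sum_congr rfl fun x _ => by rw [star_prod, Finset.prod_mul_distrib]]
    rw [← Fintype.prod_sum (fun k c => star (L k c (u.1 k, u.2 k)) * L k c (v.1 k, v.2 k))]
    refine Finset.prod_congr rfl fun k _ => ?_
    have := congrFun (congrFun (hL k) (u.1 k, u.2 k)) (v.1 k, v.2 k)
    rw [Matrix.mul_apply] at this
    exact this
  rw [e]
  exact Matrix.posSemidef_conjTranspose_mul_self _

theorem ap_kt (t : Ker a) (t' : Ker b) (X : Matrix a a ℂ) (Y : Matrix b b ℂ) :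
    ap (kt t t') (X ⊗ₖ Y) = ap t X ⊗ₖ ap t' Y := by
  funext i j
  simp only [ap, kt, kroneckerMap_apply, Fintype.sum_prod_type, Finset.sum_mul_sum]
  refine Finset.sum_congr rfl fun p _ => Finset.sum_congr rfl fun p' _ => ?_
  refine Finset.sum_congr rfl fun q _ => Finset.sum_congr rfl fun q' _ => ?_
  ring

end

variable {A B : Type} [Fintype A] [DecidableEq A] [Fintype B] [DecidableEq B] {n : ℕ}

theorem sk_kt (t : Fin n → Ker A) (t' : Fin n → Ker B) :
    sk (fun k => kt (t k) (t' k)) = kt (skA t) (skA t') := by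
  funext p q i j
  simp only [sk, kt, skA, Finset.prod_mul_distrib]

/-- Site `k` is measured against `V` and refilled if `S k`. -/
noncomputable def act (V : Matrix (A × B) (A × B) ℂ) (S : Fin n → Bool) (k : Fin n) : Ker (A × B) :=
  if S k then tk V else idk

/-- The completion maps. -/
noncomputable def mid (W : Matrix (A × B) (A × B) ℂ) (x y : Bool) : Ker (A × B) :=
  if x then (if y then 0 else idk) else (if y then idk else tk W)

/-- The state of the sites after the completion. -/
noncomputable def fin (v : ℝ) (x : Bool) : Ker (A × B) :=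
  if x then idk else tk ((v : ℂ) • (1 : Matrix (A × B) (A × B) ℂ))

theorem tk_add (V W : Matrix (A × B) (A × B) ℂ) (p q i j : A × B) :
    tk V p q i j + tk W p q i j = tk (V + W) p q i j := by
  simp only [tk, Matrix.add_apply]
  split_ifs
  · ring
  · ring

theorem sum_mid (V : Matrix (A × B) (A × B) ℂ) (v : ℝ) (T : Fin n → Bool)
    (X : Matrix ((Fin n → A) × (Fin n → B)) ((Fin n → A) × (Fin n → B)) ℂ) :
    ∑ S : Fin n → Bool, ap (sk fun k => mid ((v : ℂ) • 1 - V) (T k) (S k)) (ap (sk (act V S)) X) =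
      ap (sk fun k => fin v (T k)) X := by
  have h1 : ∀ S : Fin n → Bool, ap (sk fun k => mid ((v : ℂ) • 1 - V) (T k) (S k))
      (ap (sk (act V S)) X) =
      ap (sk fun k => (fun k y => comp (if y then tk V else idk)
        (mid ((v : ℂ) • 1 - V) (T k) y)) k (S k)) X := by
    intro S
    rw [← ap_comp, comp_sk]
    rfl
  rw [Finset.sum_congr rfl fun S _ => h1 S, sum_sk (fun k y => comp (if y then tk V else idk)
        (mid ((v : ℂ) • 1 - V) (T k) y))]
  congr 2
  funext k p q i j
  cases hT : T k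
  · simp only [mid, fin, Bool.false_eq_true, if_false, if_true, comp_idk, idk_comp]
    rw [tk_add, add_sub_cancel]
  · simp only [mid, fin, if_true, if_false, Bool.false_eq_true, comp_zero, comp_idk]
    simp

theorem fin_kt (v : ℝ) (x : Bool) : (fin v x : Ker (A × B)) =
    kt (if x then idk else tk ((v : ℂ) • 1)) (if x then idk else tk 1) := by
  cases x
  · funext p q i j
    simp only [fin, kt, Bool.false_eq_true, if_false, tk, Matrix.smul_apply, Matrix.one_apply,
      smul_eq_mul, Prod.ext_iff, Fintype.card_prod]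
    by_cases h1 : i.1 = j.1 <;> by_cases h2 : i.2 = j.2 <;> by_cases h3 : q.1 = p.1 <;>
      by_cases h4 : q.2 = p.2 <;> simp [h1, h2, h3, h4, mul_comm, div_eq_mul_inv, mul_assoc]
  · funext p q i j
    simp only [fin, kt, if_true, idk, Prod.ext_iff]
    by_cases h1 : p.1 = i.1 <;> by_cases h2 : p.2 = i.2 <;> by_cases h3 : q.1 = j.1 <;>
      by_cases h4 : q.2 = j.2 <;> simp [h1, h2, h3, h4]

theorem smul_one_psd {a : Type} [Fintype a] [DecidableEq a] {v : ℝ} (hv : 0 ≤ v) :
    ((v : ℂ) • (1 : Matrix a a ℂ)).PosSemidef :=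
  PosSemidef.one.smul (by exact_mod_cast hv)

/-- The final operators are products. -/
theorem fin_prod {v : ℝ} (hv : 0 ≤ v) (T : Fin n → Bool) :
    ∃ (f : Matrix (Fin n → A) (Fin n → A) ℂ → Matrix (Fin n → A) (Fin n → A) ℂ)
      (g : Matrix (Fin n → B) (Fin n → B) ℂ → Matrix (Fin n → B) (Fin n → B) ℂ),
      (∀ X, X.PosSemidef → (f X).PosSemidef) ∧ (∀ X, X.PosSemidef → (g X).PosSemidef) ∧
      ∀ X Y, ap (sk fun k => (fin v (T k) : Ker (A × B))) (X ⊗ₖ Y) = f X ⊗ₖ g Y := by
  refine ⟨ap (skA fun k => if T k then idk else tk ((v : ℂ) • 1)),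
    ap (skA fun k => if T k then idk else tk 1), fun X hX => ap_psd (choi_skA fun k => ?_) hX,
    fun X hX => ap_psd (choi_skA fun k => ?_) hX, fun X Y => ?_⟩
  · split_ifs
    · exact choi_idk
    · exact choi_tk (smul_one_psd hv)
  · split_ifs
    · exact choi_idk
    · exact choi_tk PosSemidef.one
  · simp only [fin_kt]
    rw [sk_kt, ap_kt]

/-- The measured operator of the set `T`. -/
def mea (V : Matrix (A × B) (A × B) ℂ) (x : Bool) : Matrix (A × B) (A × B) ℂ := if x then V else 1

/-- Row L4, linear form. -/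
theorem key_lin {V : Matrix (A × B) (A × B) ℂ} (hV : V.PosSemidef) {v : ℝ} (hv : 0 ≤ v)
    (hW : ((v : ℂ) • 1 - V).PosSemidef)
    {α₀ α₁ : Matrix (Fin n → A) (Fin n → A) ℂ} {β₀ β₁ : Matrix (Fin n → B) (Fin n → B) ℂ}
    (hα₀ : α₀.PosSemidef) (hα₁ : α₁.PosSemidef) (hβ₀ : β₀.PosSemidef) (hβ₁ : β₁.PosSemidef)
    (Z : (Fin n → Bool) → Matrix ((Fin n → A) × (Fin n → B)) ((Fin n → A) × (Fin n → B)) ℂ)
    (hZ : ∀ S, (Z S).IsHermitian)
    (hb : ∀ S, (fromBlocks (ap (sk (act V S)) (α₁ ⊗ₖ β₁)) (Z S) (Z S)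
      (ap (sk (act V S)) (α₀ ⊗ₖ β₀))).PosSemidef) :
    2 * ∑ S : Fin n → Bool, (∏ k, if S k then (1 : ℝ) else v) * (Z S).trace.re ≤
      (tpow n ((v : ℂ) • 1 + V) * (α₁ ⊗ₖ β₀)).trace.re +
        (tpow n ((v : ℂ) • 1 + V) * (α₀ ⊗ₖ β₁)).trace.re := by
  set W : Matrix (A × B) (A × B) ℂ := (v : ℂ) • 1 - V with hWdef
  obtain ⟨Y, hY⟩ : ∃ Y : (Fin n → Bool) → Matrix ((Fin n → A) × (Fin n → B)) ((Fin n → A) × (Fin n → B)) ℂ,
    ∀ T, Y T = ∑ S : Fin n → Bool, ap (sk fun k => mid W (T k) (S k)) (Z S) := ⟨_, fun _ => rfl⟩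
  have hmid : ∀ (T S : Fin n → Bool), (Choi (sk fun k => mid W (T k) (S k))).PosSemidef := by
    intro T S
    refine choi_sk fun k => ?_
    unfold mid
    split_ifs
    · exact choi_zero
    · exact choi_idk
    · exact choi_idk
    · exact choi_tk hW
  -- each `Y T` is a Hermitian corner of the final operators
  have hblk : ∀ T, (fromBlocks (ap (sk fun k => fin v (T k)) (α₁ ⊗ₖ β₁)) (Y T) (Y T)
      (ap (sk fun k => fin v (T k)) (α₀ ⊗ₖ β₀))).PosSemidef := by
    intro T
    have h1 : fromBlocks (ap (sk fun k => fin v (T k)) (α₁ ⊗ₖ β₁)) (Y T) (Y T)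
        (ap (sk fun k => fin v (T k)) (α₀ ⊗ₖ β₀)) =
        ∑ S : Fin n → Bool, fromBlocks
          (ap (sk fun k => mid W (T k) (S k)) (ap (sk (act V S)) (α₁ ⊗ₖ β₁)))
          (ap (sk fun k => mid W (T k) (S k)) (Z S)) (ap (sk fun k => mid W (T k) (S k)) (Z S))
          (ap (sk fun k => mid W (T k) (S k)) (ap (sk (act V S)) (α₀ ⊗ₖ β₀))) := by
      rw [← sum_mid V v T (α₁ ⊗ₖ β₁), ← sum_mid V v T (α₀ ⊗ₖ β₀), hY T]
      ext i j
      rw [Matrix.sum_apply]
      rcases i with i | i <;> rcases j with j | j <;>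
        simp only [fromBlocks_apply₁₁, fromBlocks_apply₁₂, fromBlocks_apply₂₁, fromBlocks_apply₂₂,
          Matrix.sum_apply]
      · rfl
      · rfl
    rw [h1]
    exact posSemidef_sum _ fun S _ => ap_blocks (hmid T S) (hb S)
  have hherm : ∀ T, (Y T).IsHermitian := by
    intro T
    have h1 := (hblk T).isHermitian
    have h2 := (isHermitian_fromBlocks_iff.mp h1).2.1
    exact h2
  -- the core inequality for each `T`
  have hcore : ∀ T : Fin n → Bool, 2 * (wt (fun k => mea V (T k)) * Y T).trace.re ≤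
      (wt (fun k => mea V (T k)) * ap (sk fun k => fin v (T k)) (α₁ ⊗ₖ β₀)).trace.re +
      (wt (fun k => mea V (T k)) * ap (sk fun k => fin v (T k)) (α₀ ⊗ₖ β₁)).trace.re := by
    intro T
    obtain ⟨f, g, hf, hg, hfg⟩ := fin_prod (A := A) (B := B) hv T
    have h1 := hblk T
    rw [hfg, hfg] at h1
    rw [hfg, hfg]
    refine Swap.core_lin (hf _ hα₀) (hf _ hα₁) (hg _ hβ₀) (hg _ hβ₁) (hherm T) h1 ?_
    refine wt_psd fun k => ?_
    unfold mea
    split_ifs
    · exact hV
    · exact PosSemidef.one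
  -- the sum over `T`
  have hleft : ∑ T, (wt (fun k => mea V (T k)) * Y T).trace =
      ∑ S : Fin n → Bool, ((∏ k, if S k then (1 : ℝ) else v : ℝ) : ℂ) * (Z S).trace := by
    have h1 : ∀ T, (wt (fun k => mea V (T k)) * Y T).trace =
        ∑ S : Fin n → Bool, (wt (fun k => dual (mid W (T k) (S k)) (mea V (T k))) * Z S).trace := by
      intro T
      rw [hY T, Matrix.mul_sum, trace_sum]
      refine Finset.sum_congr rfl fun S _ => ?_
      rw [trace_ap, dual_sk]
    rw [Finset.sum_congr rfl fun T _ => h1 T, Finset.sum_comm]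
    refine Finset.sum_congr rfl fun S _ => ?_
    rw [← trace_sum, ← Matrix.sum_mul, sum_wt (fun k x => dual (mid W x (S k)) (mea V x))]
    have h2 : (fun k => dual (mid W true (S k)) (mea V true) + dual (mid W false (S k)) (mea V false)) =
        fun k => ((if S k then (1 : ℝ) else v : ℝ) : ℂ) • (1 : Matrix (A × B) (A × B) ℂ) := by
      funext k
      cases S k
      · simp only [mid, mea, Bool.false_eq_true, if_false, if_true, dual_idk, dual_tk_one, hWdef]
        rw [add_sub_cancel]
      · simp only [mid, mea, Bool.false_eq_true, if_false, if_true, dual_idk, dual_zero, zero_add,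
          Complex.ofReal_one, one_smul]
    rw [h2, wt_smul, wt_one, Matrix.smul_mul, Matrix.one_mul, trace_smul, smul_eq_mul,
      Complex.ofReal_prod]
  have hright : ∀ X : Matrix ((Fin n → A) × (Fin n → B)) ((Fin n → A) × (Fin n → B)) ℂ,
      ∑ T : Fin n → Bool, (wt (fun k => mea V (T k)) * ap (sk fun k => fin v (T k)) X).trace =
      (tpow n ((v : ℂ) • 1 + V) * X).trace := by
    intro X
    have h1 : ∀ T : Fin n → Bool,
        (wt (fun k => mea V (T k)) * ap (sk fun k => fin v (T k)) X).trace =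
        (wt (fun k => (fun _ x => dual (fin v x) (mea V x)) k (T k)) * X).trace := by
      intro T
      rw [trace_ap, dual_sk]
    rw [Finset.sum_congr rfl fun T _ => h1 T, ← trace_sum, ← Matrix.sum_mul,
      sum_wt (fun _ x => dual (fin v x) (mea V x)), ← wt_const]
    congr 3
    funext k
    simp only [fin, mea, Bool.false_eq_true, if_false, if_true, dual_idk, dual_tk_one]
    rw [add_comm]
  have e1 : ∑ S : Fin n → Bool, (∏ k, if S k then (1 : ℝ) else v) * (Z S).trace.re =
      ∑ T, (wt (fun k => mea V (T k)) * Y T).trace.re := by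
    rw [← Complex.re_sum, hleft, Complex.re_sum]
    refine Finset.sum_congr rfl fun S _ => ?_
    rw [Complex.re_ofReal_mul]
  rw [e1, Finset.mul_sum, ← hright, ← hright, Complex.re_sum, Complex.re_sum,
    ← Finset.sum_add_distrib]
  exact Finset.sum_le_sum fun T _ => hcore T

end Vale.Agent.P372.H536
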