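import Vale.Agent.P372.H897.SF
import Vale.Agent.P372.TestDefs

/-!
# Product superoperators on `n` sites, given by kernels

Everything lives on the index type `(Fin n → A) × (Fin n → B)` of `tpow n`.
-/

set_option linter.unusedSectionVars false
set_option linter.style.longLine false

open Matrix Kronecker Finset
open scoped ComplexOrder MatrixOrder

namespace Vale.Agent.P372.H536

open H897

variable {a : Type} [Fintype a] [DecidableEq a]

/-- Composition of kernels: first `t`, then `t'`. -/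
def comp (t t' : Ker a) : Ker a := fun p q i j => ∑ r, ∑ s, t p q r s * t' r s i j

theorem ap_comp (t t' : Ker a) (X : Matrix a a ℂ) : ap (comp t t') X = ap t' (ap t X) := by
  ext i j
  simp only [ap, comp, Finset.mul_sum, Finset.sum_mul]
  -- LHS: ∑ p, ∑ q, ∑ r, ∑ s, X p q * (t * t')
  rw [show (∑ p, ∑ q, ∑ r, ∑ s, X p q * (t p q r s * t' r s i j)) =
      ∑ p, ∑ r, ∑ q, ∑ s, X p q * (t p q r s * t' r s i j) from
    Finset.sum_congr rfl fun p _ => Finset.sum_comm, Finset.sum_comm]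
  refine Finset.sum_congr rfl fun r _ => ?_
  rw [show (∑ p, ∑ q, ∑ s, X p q * (t p q r s * t' r s i j)) =
      ∑ p, ∑ s, ∑ q, X p q * (t p q r s * t' r s i j) from
    Finset.sum_congr rfl fun p _ => Finset.sum_comm, Finset.sum_comm]
  refine Finset.sum_congr rfl fun s _ => Finset.sum_congr rfl fun p _ =>
    Finset.sum_congr rfl fun q _ => ?_
  ring

/-- The adjoint: `tr (V * ap t X) = tr (dual t V * X)`. -/
def dual (t : Ker a) (V : Matrix a a ℂ) : Matrix a a ℂ := fun q p => ∑ i, ∑ j, V j i * t p q i j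

theorem trace_ap (t : Ker a) (V X : Matrix a a ℂ) : (V * ap t X).trace = (dual t V * X).trace := by
  simp only [Matrix.trace, Matrix.diag_apply, Matrix.mul_apply, ap, dual, Finset.mul_sum,
    Finset.sum_mul]
  -- LHS: ∑ j, ∑ i, ∑ p, ∑ q, V j i * (X p q * t p q i j); RHS : ∑ q, ∑ p, ∑ i, ∑ j, ..
  rw [show (∑ j, ∑ i, ∑ p, ∑ q, V j i * (X p q * t p q i j)) =
      ∑ i, ∑ j, ∑ p, ∑ q, V j i * (X p q * t p q i j) from Finset.sum_comm]
  rw [show (∑ i, ∑ j, ∑ p, ∑ q, V j i * (X p q * t p q i j)) =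
      ∑ i, ∑ j, ∑ q, ∑ p, V j i * (X p q * t p q i j) from
    Finset.sum_congr rfl fun i _ => Finset.sum_congr rfl fun j _ => Finset.sum_comm]
  rw [show (∑ i, ∑ j, ∑ q, ∑ p, V j i * (X p q * t p q i j)) =
      ∑ i, ∑ q, ∑ j, ∑ p, V j i * (X p q * t p q i j) from
    Finset.sum_congr rfl fun i _ => Finset.sum_comm, Finset.sum_comm]
  refine Finset.sum_congr rfl fun q _ => ?_
  rw [show (∑ i, ∑ j, ∑ p, V j i * (X p q * t p q i j)) =
      ∑ i, ∑ p, ∑ j, V j i * (X p q * t p q i j) from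
    Finset.sum_congr rfl fun i _ => Finset.sum_comm, Finset.sum_comm]
  refine Finset.sum_congr rfl fun p _ => Finset.sum_congr rfl fun i _ =>
    Finset.sum_congr rfl fun j _ => ?_
  ring

theorem ap_sum {ι : Type} (s : Finset ι) (t : Ker a) (X : ι → Matrix a a ℂ) :
    ap t (∑ l ∈ s, X l) = ∑ l ∈ s, ap t (X l) := by
  ext i j
  simp only [ap, Matrix.sum_apply, Finset.sum_mul]
  rw [show (∑ p, ∑ q, ∑ l ∈ s, X l p q * t p q i j) = ∑ p, ∑ l ∈ s, ∑ q, X l p q * t p q i j from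
    Finset.sum_congr rfl fun p _ => Finset.sum_comm, Finset.sum_comm]

theorem sum_ap {ι : Type} (s : Finset ι) (t : ι → Ker a) (X : Matrix a a ℂ) :
    ∑ l ∈ s, ap (t l) X = ap (fun p q i j => ∑ l ∈ s, t l p q i j) X := by
  ext i j
  simp only [ap, Matrix.sum_apply, Finset.mul_sum]
  rw [show (∑ p, ∑ q, ∑ l ∈ s, X p q * t l p q i j) = ∑ p, ∑ l ∈ s, ∑ q, X p q * t l p q i j from
    Finset.sum_congr rfl fun p _ => Finset.sum_comm, Finset.sum_comm]

/-! ### Sites -/

variable {A B : Type} [Fintype A] [DecidableEq A] [Fintype B] [DecidableEq B] {n : ℕ}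

theorem sum_prod (f : Fin n → A × B → ℂ) :
    ∑ p : (Fin n → A) × (Fin n → B), ∏ k, f k (p.1 k, p.2 k) = ∏ k, ∑ c, f k c := by
  rw [Fintype.prod_sum]
  exact Fintype.sum_equiv (Equiv.arrowProdEquivProdArrow (Fin n) (fun _ => A) (fun _ => B)).symm _ _
    (fun _ => rfl)

/-- The product kernel. -/
def sk (t : Fin n → Ker (A × B)) : Ker ((Fin n → A) × (Fin n → B)) :=
  fun p q i j => ∏ k, t k (p.1 k, p.2 k) (q.1 k, q.2 k) (i.1 k, i.2 k) (j.1 k, j.2 k)

/-- The product operator. -/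
def wt (v : Fin n → Matrix (A × B) (A × B) ℂ) :
    Matrix ((Fin n → A) × (Fin n → B)) ((Fin n → A) × (Fin n → B)) ℂ :=
  fun p q => ∏ k, v k (p.1 k, p.2 k) (q.1 k, q.2 k)

theorem comp_sk (t t' : Fin n → Ker (A × B)) : comp (sk t) (sk t') = sk fun k => comp (t k) (t' k) := by
  funext p q i j
  simp only [comp, sk]
  rw [← sum_prod (fun k c => ∑ s, t k (p.1 k, p.2 k) (q.1 k, q.2 k) c s *
    t' k c s (i.1 k, i.2 k) (j.1 k, j.2 k))]
  refine Finset.sum_congr rfl fun r _ => ?_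
  rw [← sum_prod (fun k c => t k (p.1 k, p.2 k) (q.1 k, q.2 k) (r.1 k, r.2 k) c *
    t' k (r.1 k, r.2 k) c (i.1 k, i.2 k) (j.1 k, j.2 k))]
  refine Finset.sum_congr rfl fun s _ => ?_
  rw [Finset.prod_mul_distrib]

theorem dual_sk (t : Fin n → Ker (A × B)) (v : Fin n → Matrix (A × B) (A × B) ℂ) :
    dual (sk t) (wt v) = wt fun k => dual (t k) (v k) := by
  funext q p
  simp only [dual, sk, wt]
  rw [← sum_prod (fun k c => ∑ s, v k s c * t k (p.1 k, p.2 k) (q.1 k, q.2 k) c s)]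
  refine Finset.sum_congr rfl fun r _ => ?_
  rw [← sum_prod (fun k c => v k c (r.1 k, r.2 k) * t k (p.1 k, p.2 k) (q.1 k, q.2 k) (r.1 k, r.2 k) c)]
  refine Finset.sum_congr rfl fun s _ => ?_
  rw [Finset.prod_mul_distrib]

theorem ap_sk_wt (t : Fin n → Ker (A × B)) (v : Fin n → Matrix (A × B) (A × B) ℂ) :
    ap (sk t) (wt v) = wt fun k => ap (t k) (v k) := by
  funext i j
  simp only [ap, sk, wt]
  rw [← sum_prod (fun k c => ∑ s, v k c s * t k c s (i.1 k, i.2 k) (j.1 k, j.2 k))]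
  refine Finset.sum_congr rfl fun r _ => ?_
  rw [← sum_prod (fun k c => v k (r.1 k, r.2 k) c * t k (r.1 k, r.2 k) c (i.1 k, i.2 k) (j.1 k, j.2 k))]
  refine Finset.sum_congr rfl fun s _ => ?_
  rw [Finset.prod_mul_distrib]

theorem sum_sk (t : Fin n → Bool → Ker (A × B)) (X : Matrix ((Fin n → A) × (Fin n → B)) ((Fin n → A) × (Fin n → B)) ℂ) :
    ∑ S : Fin n → Bool, ap (sk fun k => t k (S k)) X =
      ap (sk fun k p q i j => t k true p q i j + t k false p q i j) X := by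
  rw [sum_ap]
  congr 1
  funext p q i j
  simp only [sk]
  rw [← Fintype.prod_sum (fun k b => t k b (p.1 k, p.2 k) (q.1 k, q.2 k) (i.1 k, i.2 k) (j.1 k, j.2 k))]
  refine Finset.prod_congr rfl fun k _ => ?_
  rw [Fintype.sum_bool]

theorem sum_wt (v : Fin n → Bool → Matrix (A × B) (A × B) ℂ) :
    ∑ S : Fin n → Bool, wt (fun k => v k (S k)) = wt (fun k => v k true + v k false) := by
  funext p q
  rw [Matrix.sum_apply]
  simp only [wt, Matrix.add_apply]
  rw [← Fintype.prod_sum (fun k b => v k b (p.1 k, p.2 k) (q.1 k, q.2 k))]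
  refine Finset.prod_congr rfl fun k _ => ?_
  rw [Fintype.sum_bool]

theorem wt_one : wt (fun _ : Fin n => (1 : Matrix (A × B) (A × B) ℂ)) = 1 := by
  funext p q
  simp only [wt, Matrix.one_apply, Finset.prod_ite_zero, Finset.prod_const_one]
  congr 1
  simp only [eq_iff_iff, Finset.mem_univ, true_implies, Prod.ext_iff]
  constructor
  · intro h
    exact ⟨funext fun k => (h k).1, funext fun k => (h k).2⟩
  · rintro ⟨h1, h2⟩ k
    exact ⟨congrFun h1 k, congrFun h2 k⟩

theorem wt_smul (c : Fin n → ℂ) (v : Fin n → Matrix (A × B) (A × B) ℂ) :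
    wt (fun k => c k • v k) = (∏ k, c k) • wt v := by
  funext p q
  simp only [wt, Matrix.smul_apply, smul_eq_mul, Finset.prod_mul_distrib]

theorem wt_const (R : Matrix (A × B) (A × B) ℂ) : wt (fun _ : Fin n => R) = tpow n R := rfl

theorem psd_exists {m : Type} [Fintype m] [DecidableEq m] {M : Matrix m m ℂ} (h : M.PosSemidef) :
    ∃ L : Matrix m m ℂ, M = Lᴴ * L := by
  obtain ⟨L, hL⟩ := CStarAlgebra.nonneg_iff_eq_star_mul_self.mp h.nonneg
  exact ⟨L, hL⟩

theorem wt_psd {v : Fin n → Matrix (A × B) (A × B) ℂ} (h : ∀ k, (v k).PosSemidef) :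
    (wt v).PosSemidef := by
  choose L hL using fun k => psd_exists (h k)
  have e : wt v = (wt L)ᴴ * wt L := by
    funext p q
    simp only [Matrix.mul_apply, Matrix.conjTranspose_apply, wt]
    rw [show (∑ x : (Fin n → A) × (Fin n → B), star (∏ k, L k (x.1 k, x.2 k) (p.1 k, p.2 k)) *
        ∏ k, L k (x.1 k, x.2 k) (q.1 k, q.2 k)) =
        ∑ x : (Fin n → A) × (Fin n → B), ∏ k, (star (L k (x.1 k, x.2 k) (p.1 k, p.2 k)) *
          L k (x.1 k, x.2 k) (q.1 k, q.2 k)) from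
      Finset.sum_congr rfl fun x _ => by rw [star_prod, Finset.prod_mul_distrib]]
    rw [sum_prod (fun k c => star (L k c (p.1 k, p.2 k)) * L k c (q.1 k, q.2 k))]
    refine Finset.prod_congr rfl fun k _ => ?_
    rw [hL k, Matrix.mul_apply]
    rfl
  rw [e]
  exact Matrix.posSemidef_conjTranspose_mul_self _

theorem choi_sk {t : Fin n → Ker (A × B)} (h : ∀ k, (Choi (t k)).PosSemidef) :
    (Choi (sk t)).PosSemidef := by
  choose L hL using fun k => psd_exists (h k)
  obtain ⟨M, hM⟩ : ∃ M : Matrix (Fin n → ((A × B) × (A × B)))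
      (((Fin n → A) × (Fin n → B)) × ((Fin n → A) × (Fin n → B))) ℂ,
    ∀ x u, M x u = ∏ k, L k (x k) ((u.1.1 k, u.1.2 k), (u.2.1 k, u.2.2 k)) :=
    ⟨fun x u => ∏ k, L k (x k) ((u.1.1 k, u.1.2 k), (u.2.1 k, u.2.2 k)), fun _ _ => rfl⟩
  have e : Choi (sk t) = Mᴴ * M := by
    funext u v
    simp only [Matrix.mul_apply, Matrix.conjTranspose_apply, hM, Choi, sk]
    rw [show (∑ x : Fin n → ((A × B) × (A × B)),
        star (∏ k, L k (x k) ((u.1.1 k, u.1.2 k), (u.2.1 k, u.2.2 k))) *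
          ∏ k, L k (x k) ((v.1.1 k, v.1.2 k), (v.2.1 k, v.2.2 k))) =
        ∑ x : Fin n → ((A × B) × (A × B)),
          ∏ k, (star (L k (x k) ((u.1.1 k, u.1.2 k), (u.2.1 k, u.2.2 k))) *
            L k (x k) ((v.1.1 k, v.1.2 k), (v.2.1 k, v.2.2 k))) from
      Finset.sum_congr rfl fun x _ => by rw [star_prod, Finset.prod_mul_distrib]]
    rw [← Fintype.prod_sum (fun k c => star (L k c ((u.1.1 k, u.1.2 k), (u.2.1 k, u.2.2 k))) *
            L k c ((v.1.1 k, v.1.2 k), (v.2.1 k, v.2.2 k)))]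
    refine Finset.prod_congr rfl fun k _ => ?_
    have := congrFun (congrFun (hL k) ((u.1.1 k, u.1.2 k), (u.2.1 k, u.2.2 k)))
      ((v.1.1 k, v.1.2 k), (v.2.1 k, v.2.2 k))
    rw [Matrix.mul_apply] at this
    exact this
  rw [e]
  exact Matrix.posSemidef_conjTranspose_mul_self _

/-! ### The three site maps -/

/-- The identity. -/
def idk : Ker a := fun p q i j => if p = i ∧ q = j then 1 else 0

/-- `X ↦ tr (V X) 1 / d`. -/
noncomputable def tk (V : Matrix a a ℂ) : Ker a := fun p q i j => if i = j then V q p / (Fintype.card a : ℂ) else 0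

theorem ap_idk (X : Matrix a a ℂ) : ap idk X = X := by
  funext i j
  simp only [ap, idk]
  rw [Finset.sum_eq_single i, Finset.sum_eq_single j]
  · simp
  · intro q _ hq
    simp [hq]
  · simp
  · intro p _ hp
    refine Finset.sum_eq_zero fun q _ => ?_
    simp [hp]
  · simp

theorem choi_idk : (Choi (idk : Ker a)).PosSemidef := by
  have e : Choi (idk : Ker a) = vecMulVec (fun u : a × a => if u.1 = u.2 then (1 : ℂ) else 0)
      (star (fun u : a × a => if u.1 = u.2 then (1 : ℂ) else 0)) := by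
    funext u v
    simp only [Choi, idk, vecMulVec_apply, Pi.star_apply]
    by_cases h1 : u.1 = u.2 <;> by_cases h2 : v.1 = v.2 <;> simp [h1, h2]
  rw [e]
  exact posSemidef_vecMulVec_self_star _

theorem choi_tk {V : Matrix a a ℂ} (hV : V.PosSemidef) : (Choi (tk V)).PosSemidef := by
  have h0 : (0 : ℂ) ≤ ((Fintype.card a : ℂ))⁻¹ := by
    have : (0 : ℝ) ≤ ((Fintype.card a : ℝ))⁻¹ := by positivity
    have h2 : ((Fintype.card a : ℂ))⁻¹ = ((((Fintype.card a : ℝ))⁻¹ : ℝ) : ℂ) := by push_cast; rfl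
    rw [h2]
    exact_mod_cast this
  have h1 : (((Fintype.card a : ℂ))⁻¹ • (Vᵀ ⊗ₖ (1 : Matrix a a ℂ))).PosSemidef :=
    (hV.transpose.kronecker PosSemidef.one).smul h0
  have e : Choi (tk V) = ((Fintype.card a : ℂ))⁻¹ • (Vᵀ ⊗ₖ (1 : Matrix a a ℂ)) := ?_
  · rw [e]; exact h1
  funext u v
  simp only [Choi, tk, Matrix.smul_apply, kroneckerMap_apply, transpose_apply, Matrix.one_apply,
    smul_eq_mul]
  split_ifs <;> ring

theorem choi_zero : (Choi (0 : Ker a)).PosSemidef := by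
  have e : Choi (0 : Ker a) = 0 := rfl
  rw [e]
  exact PosSemidef.zero

end Vale.Agent.P372.H536
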